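import Mathlib

open MeasureTheory Set Filter

namespace Vale.Agent.Lib.P028

/-- The Chung-Erdos inequality for finitely many measurable events of a finite measure. -/
lemma chung_erdos {α : Type*} [MeasurableSpace α] (μ : Measure α) [IsFiniteMeasure μ]
    (s : Finset ℕ) (E : ℕ → Set α) (hE : ∀ i ∈ s, MeasurableSet (E i)) :
    (∑ i ∈ s, μ.real (E i)) ^ 2
      ≤ μ.real (⋃ i ∈ s, E i) * ∑ i ∈ s, ∑ j ∈ s, μ.real (E i ∩ E j) := by
  classical
  set U : Set α := ⋃ i ∈ s, E i with hU
  have hUmeas : MeasurableSet U := Finset.measurableSet_biUnion s hE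
  set f : α → ℝ := fun x => ∑ i ∈ s, (E i).indicator (1 : α → ℝ) x with hf
  have hind_int : ∀ i ∈ s, Integrable ((E i).indicator (1 : α → ℝ)) μ :=
    fun i hi => (integrable_const (1 : ℝ)).indicator (hE i hi)
  have hf_int : Integrable f μ := integrable_finsetSum s hind_int
  have hU_int : Integrable (U.indicator (1 : α → ℝ)) μ :=
    (integrable_const (1 : ℝ)).indicator hUmeas
  have hf_val : ∫ x, f x ∂μ = ∑ i ∈ s, μ.real (E i) := by
    rw [hf, integral_finsetSum s hind_int]
    refine Finset.sum_congr rfl fun i hi => ?_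
    exact integral_indicator_one (hE i hi)
  have hf2 : ∀ x, f x ^ 2 = ∑ i ∈ s, ∑ j ∈ s, (E i ∩ E j).indicator (1 : α → ℝ) x := by
    intro x
    rw [hf, sq, Finset.sum_mul_sum]
    refine Finset.sum_congr rfl fun i _ => Finset.sum_congr rfl fun j _ => ?_
    rw [Set.inter_indicator_one]; rfl
  have hind2_int : ∀ i ∈ s, ∀ j ∈ s, Integrable ((E i ∩ E j).indicator (1 : α → ℝ)) μ :=
    fun i hi j hj => (integrable_const (1 : ℝ)).indicator ((hE i hi).inter (hE j hj))
  have hf2_int : Integrable (fun x => f x ^ 2) μ := by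
    have : (fun x => f x ^ 2)
        = fun x => ∑ i ∈ s, ∑ j ∈ s, (E i ∩ E j).indicator (1 : α → ℝ) x := funext hf2
    rw [this]
    exact integrable_finsetSum s fun i hi => integrable_finsetSum s fun j hj => hind2_int i hi j hj
  have hf2_val : ∫ x, f x ^ 2 ∂μ = ∑ i ∈ s, ∑ j ∈ s, μ.real (E i ∩ E j) := by
    have : (fun x => f x ^ 2)
        = fun x => ∑ i ∈ s, ∑ j ∈ s, (E i ∩ E j).indicator (1 : α → ℝ) x := funext hf2
    rw [this, integral_finsetSum s
      (fun i hi => integrable_finsetSum s fun j hj => hind2_int i hi j hj)]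
    refine Finset.sum_congr rfl fun i hi => ?_
    rw [integral_finsetSum s (fun j hj => hind2_int i hi j hj)]
    refine Finset.sum_congr rfl fun j hj => ?_
    exact integral_indicator_one ((hE i hi).inter (hE j hj))
  have hfU : ∀ x, f x * U.indicator (1 : α → ℝ) x = f x := by
    intro x
    by_cases hx : x ∈ U
    · simp [Set.indicator_of_mem hx]
    · have : f x = 0 := by
        rw [hf]
        refine Finset.sum_eq_zero fun i hi => ?_
        have : x ∉ E i := fun h => hx (mem_biUnion hi h)
        simp [Set.indicator_of_notMem this]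
      simp [this]
  have hUsq : ∀ x, U.indicator (1 : α → ℝ) x ^ 2 = U.indicator (1 : α → ℝ) x := by
    intro x
    by_cases hx : x ∈ U
    · simp [Set.indicator_of_mem hx]
    · simp [Set.indicator_of_notMem hx]
  set a := ∑ i ∈ s, μ.real (E i) with ha
  set b := ∑ i ∈ s, ∑ j ∈ s, μ.real (E i ∩ E j) with hb
  set u := μ.real U with hu
  have hquad : ∀ lam : ℝ, 0 ≤ b - 2 * lam * a + lam ^ 2 * u := by
    intro lam
    have h0 : 0 ≤ ∫ x, (f x - lam * U.indicator (1 : α → ℝ) x) ^ 2 ∂μ :=
      integral_nonneg fun x => sq_nonneg _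
    have hexp : (fun x => (f x - lam * U.indicator (1 : α → ℝ) x) ^ 2)
        = fun x => f x ^ 2 - 2 * lam * f x + lam ^ 2 * U.indicator (1 : α → ℝ) x := by
      funext x
      have h1 := hfU x
      have h2 := hUsq x
      calc (f x - lam * U.indicator (1 : α → ℝ) x) ^ 2
          = f x ^ 2 - 2 * lam * (f x * U.indicator (1 : α → ℝ) x)
              + lam ^ 2 * U.indicator (1 : α → ℝ) x ^ 2 := by ring
        _ = f x ^ 2 - 2 * lam * f x + lam ^ 2 * U.indicator (1 : α → ℝ) x := by rw [h1, h2]
    have h3 : Integrable (fun x => 2 * lam * f x) μ := hf_int.const_mul _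
    have h1 : Integrable (fun x => f x ^ 2 - 2 * lam * f x) μ := hf2_int.sub h3
    have h2 : Integrable (fun x => lam ^ 2 * U.indicator (1 : α → ℝ) x) μ := hU_int.const_mul _
    rw [hexp, integral_add h1 h2, integral_sub hf2_int h3, integral_const_mul,
      integral_const_mul, hf2_val, hf_val, integral_indicator_one hUmeas] at h0
    exact h0
  have ha0 : 0 ≤ a := Finset.sum_nonneg fun i _ => measureReal_nonneg
  have hu0 : 0 ≤ u := measureReal_nonneg
  rcases hu0.eq_or_lt with hu0' | hupos
  · -- the union is null, hence so is every event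
    have hazero : a = 0 := by
      refine Finset.sum_eq_zero fun i hi => ?_
      have hsub : E i ⊆ U := subset_biUnion_of_mem hi
      have := measureReal_mono (μ := μ) hsub (measure_ne_top μ U)
      have h' : 0 ≤ μ.real (E i) := measureReal_nonneg
      linarith
    rw [hazero, ← hu0']; simp
  · have h := hquad (a / u)
    have e : b - 2 * (a / u) * a + (a / u) ^ 2 * u = b - a ^ 2 / u := by
      field_simp; ring
    rw [e] at h
    have : a ^ 2 / u ≤ b := by linarith
    rw [div_le_iff₀ hupos] at this
    linarith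

end Vale.Agent.Lib.P028
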