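import Mathlib

/-!
Overlap estimates for the sets `{x : q • x ∈ ball c δ}` on the unit additive circle.
-/

open MeasureTheory Set Filter Metric
open scoped ENNReal

namespace Vale.Agent.Lib.P028

/-- `cset q c δ` is the set of points `x` of the circle with `q • x` in the open ball `ball c δ`. -/
def cset (q : ℕ) (c : UnitAddCircle) (δ : ℝ) : Set UnitAddCircle :=
  (fun x : UnitAddCircle => q • x) ⁻¹' (ball c δ)

lemma measurableSet_cset (q : ℕ) (c : UnitAddCircle) (δ : ℝ) : MeasurableSet (cset q c δ) :=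
  (continuous_nsmul q).measurable measurableSet_ball

lemma mp_nsmul {q : ℕ} (hq : q ≠ 0) :
    MeasurePreserving (fun x : UnitAddCircle => q • x) volume volume := by
  have h := Measure.measurePreserving_zsmul (volume : Measure UnitAddCircle) (n := (q : ℤ))
    (by exact_mod_cast hq)
  simpa using h

lemma volume_cset {q : ℕ} (hq : q ≠ 0) (c : UnitAddCircle) (δ : ℝ) :
    volume (cset q c δ) = volume (ball c δ) :=
  (mp_nsmul hq).measure_preimage measurableSet_ball.nullMeasurableSet

lemma volume_ball_eq_min (c : UnitAddCircle) (δ : ℝ) :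
    volume (ball c δ) = ENNReal.ofReal (min 1 (2 * δ)) := by
  rw [← measure_congr (AddCircle.closedBall_ae_eq_ball (x := c) (ε := δ)),
    AddCircle.volume_closedBall]

lemma volume_ball_le (c : UnitAddCircle) (δ : ℝ) :
    volume (ball c δ) ≤ ENNReal.ofReal (2 * δ) := by
  rw [volume_ball_eq_min]
  exact ENNReal.ofReal_le_ofReal (min_le_right _ _)

lemma volume_ball_eq (c : UnitAddCircle) {δ : ℝ} (h1 : δ ≤ 1 / 2) :
    volume (ball c δ) = ENNReal.ofReal (2 * δ) := by
  rw [volume_ball_eq_min, min_eq_right (by linarith)]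

open scoped Classical in
/-- If every point lies in at most `C` of the measurable sets `A i ⊆ H`, then the measures of
the `A i` add up to at most `C * μ H`. -/
lemma sum_measure_le_of_card_le {α ι : Type*} [MeasurableSpace α] (μ : Measure α)
    (s : Finset ι) (A : ι → Set α) (H : Set α) (hA : ∀ i ∈ s, MeasurableSet (A i))
    (hH : MeasurableSet H) (C : ℝ≥0∞) (hsub : ∀ i ∈ s, A i ⊆ H)
    (hc : ∀ x, (((s.filter (fun i => x ∈ A i)).card : ℕ) : ℝ≥0∞) ≤ C) :
    ∑ i ∈ s, μ (A i) ≤ C * μ H := by
  calc ∑ i ∈ s, μ (A i) = ∑ i ∈ s, ∫⁻ x, (A i).indicator 1 x ∂μ := by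
        refine Finset.sum_congr rfl fun i hi => ?_
        rw [lintegral_indicator_one (hA i hi)]
    _ = ∫⁻ x, ∑ i ∈ s, (A i).indicator 1 x ∂μ := by
        rw [lintegral_finsetSum]
        intro i hi
        exact measurable_one.indicator (hA i hi)
    _ ≤ ∫⁻ x, C * H.indicator 1 x ∂μ := by
        apply lintegral_mono
        intro x
        have hsum : ∑ i ∈ s, (A i).indicator (1 : α → ℝ≥0∞) x
            = (((s.filter (fun i => x ∈ A i)).card : ℕ) : ℝ≥0∞) := by
          rw [← Finset.sum_boole]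
          refine Finset.sum_congr rfl fun i _ => ?_
          simp [Set.indicator_apply]
        simp only
        rw [hsum]
        by_cases hx : x ∈ H
        · simpa [Set.indicator_of_mem hx] using hc x
        · have hempty : s.filter (fun i => x ∈ A i) = ∅ := by
            apply Finset.filter_eq_empty_iff.2
            intro i hi hxi
            exact hx (hsub i hi hxi)
          simp [hempty]
    _ = C * μ H := by
        rw [lintegral_const_mul _ (measurable_one.indicator hH), lintegral_indicator_one hH]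

/-- The number of integers in an open real interval `(a, b)` is at most `b - a + 1`. -/
lemma card_int_Ioo_le (a b : ℝ) (hab : a ≤ b) :
    (((Finset.Ioo ⌊a⌋ ⌈b⌉).card : ℕ) : ℝ) ≤ b - a + 1 := by
  rw [Int.card_Ioo]
  have h1 : (⌈b⌉ : ℝ) < b + 1 := Int.ceil_lt_add_one b
  have h2 : a - 1 < (⌊a⌋ : ℝ) := Int.sub_one_lt_floor a
  by_cases h : 0 ≤ ⌈b⌉ - ⌊a⌋ - 1
  · have : (((⌈b⌉ - ⌊a⌋ - 1).toNat : ℕ) : ℝ) = ((⌈b⌉ - ⌊a⌋ - 1 : ℤ) : ℝ) := by
      have := Int.toNat_of_nonneg h
      exact_mod_cast this
    rw [this]; push_cast; linarith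
  · have : (⌈b⌉ - ⌊a⌋ - 1).toNat = 0 := Int.toNat_eq_zero.2 (by omega)
    rw [this]; simp; linarith

end Vale.Agent.Lib.P028
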