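import Vale.Agent.Lib.P028.Main

open MeasureTheory Set Filter Metric
open scoped ENNReal

namespace Vale.Agent.Lib.P028

/-- The gcd sum `∑_{1 ≤ q < r} gcd(q, r)` is at most `τ(r) * r`. -/
lemma sum_gcd_le (r : ℕ) : ∑ q ∈ Finset.Ico 1 r, Nat.gcd q r ≤ (Nat.divisors r).card * r := by
  rcases Nat.eq_zero_or_pos r with h | hr
  · subst h; simp
  have h1 : ∀ q ∈ Finset.Ico 1 r,
      Nat.gcd q r ≤ ∑ d ∈ Nat.divisors r, if d ∣ q then d else 0 := by
    intro q _
    have hmem : Nat.gcd q r ∈ Nat.divisors r :=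
      Nat.mem_divisors.2 ⟨Nat.gcd_dvd_right q r, hr.ne'⟩
    calc Nat.gcd q r = if Nat.gcd q r ∣ q then Nat.gcd q r else 0 := by
          simp [Nat.gcd_dvd_left]
      _ ≤ ∑ d ∈ Nat.divisors r, if d ∣ q then d else 0 :=
          Finset.single_le_sum (f := fun d => if d ∣ q then d else 0)
            (fun _ _ => Nat.zero_le _) hmem
  calc ∑ q ∈ Finset.Ico 1 r, Nat.gcd q r
      ≤ ∑ q ∈ Finset.Ico 1 r, ∑ d ∈ Nat.divisors r, if d ∣ q then d else 0 :=
        Finset.sum_le_sum h1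
    _ = ∑ d ∈ Nat.divisors r, ∑ q ∈ Finset.Ico 1 r, if d ∣ q then d else 0 := Finset.sum_comm
    _ = ∑ d ∈ Nat.divisors r, ((Finset.Ico 1 r).filter (fun q => d ∣ q)).card * d := by
        refine Finset.sum_congr rfl fun d _ => ?_
        rw [← Finset.sum_filter, Finset.sum_const, smul_eq_mul]
    _ ≤ ∑ d ∈ Nat.divisors r, r := by
        refine Finset.sum_le_sum fun d hd => ?_
        have hdr : d ∣ r := (Nat.mem_divisors.1 hd).1
        have hcard : ((Finset.Ico 1 r).filter (fun q => d ∣ q)).card ≤ r / d := by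
          rw [← Nat.Ioc_filter_dvd_card_eq_div r d]
          apply Finset.card_le_card
          intro q hq
          rw [Finset.mem_filter, Finset.mem_Ico] at hq
          rw [Finset.mem_filter, Finset.mem_Ioc]
          exact ⟨⟨by omega, by omega⟩, hq.2⟩
        calc ((Finset.Ico 1 r).filter (fun q => d ∣ q)).card * d ≤ (r / d) * d :=
              Nat.mul_le_mul_right d hcard
          _ = r := Nat.div_mul_cancel hdr
    _ = (Nat.divisors r).card * r := by rw [Finset.sum_const, smul_eq_mul]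

/-- Supports with a bounded number of divisors. -/
theorem bounded_divisors (γ : ℝ) (ψ : ℕ → ℝ) (hψ0 : ∀ q, 0 ≤ ψ q) (T : ℕ)
    (hsupp : ∀ q, ψ q ≠ 0 → (Nat.divisors q).card ≤ T) (hdiv : ¬ Summable ψ) :
    ∀ᵐ x : ℝ, {q : ℕ | 0 < q ∧ ∃ a : ℤ, |(q : ℝ) * x - a - γ| < ψ q}.Infinite := by
  set ψ' : ℕ → ℝ := fun q => min (ψ q) (1 / 2) with hψ'
  have h0' : ∀ q, 0 ≤ ψ' q := fun q => le_min (hψ0 q) (by norm_num)
  have h1' : ∀ q, ψ' q ≤ 1 / 2 := fun q => min_le_right _ _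
  have hle : ∀ q, ψ' q ≤ ψ q := fun q => min_le_left _ _
  have hdiv' : ¬ Summable ψ' := by
    intro hs
    have ht := hs.tendsto_atTop_zero
    have hev : ∀ᶠ q in atTop, ψ' q < 1 / 2 := ht.eventually_lt_const (by norm_num)
    have heq : ψ' =ᶠ[atTop] ψ := by
      filter_upwards [hev] with q hq
      simp only [hψ'] at hq ⊢
      rcases le_total (ψ q) (1 / 2) with h | h
      · exact min_eq_left h
      · rw [min_eq_right h] at hq; exact absurd hq (lt_irrefl _)
    exact hdiv (hs.congr_atTop heq)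
  have hsupp' : ∀ q, ψ' q ≠ 0 → (Nat.divisors q).card ≤ T := by
    intro q hq
    apply hsupp q
    intro h
    apply hq
    simp [hψ', h]
  have hgcd' : ∀ ε > 0, ∃ᶠ N in atTop,
      ∑ r ∈ Finset.Icc 1 N, ∑ q ∈ Finset.Ico 1 r,
          (Nat.gcd q r : ℝ) * min (ψ' q / q) (ψ' r / r)
        ≤ ε * (∑ q ∈ Finset.Icc 1 N, ψ' q) ^ 2 := by
    intro ε hε
    apply Filter.Eventually.frequently
    have hev := (tendsto_partial h0' hdiv').eventually_ge_atTop ((T : ℝ) / ε)
    filter_upwards [hev] with N hN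
    set S := ∑ q ∈ Finset.Icc 1 N, ψ' q with hS
    have hS0 : 0 ≤ S := Finset.sum_nonneg fun q _ => h0' q
    have hrow : ∀ r ∈ Finset.Icc 1 N,
        ∑ q ∈ Finset.Ico 1 r, (Nat.gcd q r : ℝ) * min (ψ' q / q) (ψ' r / r)
          ≤ (T : ℝ) * ψ' r := by
      intro r hr
      have hr1 : 1 ≤ r := (Finset.mem_Icc.1 hr).1
      have hrpos : (0 : ℝ) < r := by exact_mod_cast hr1
      have hnn : 0 ≤ ψ' r / r := div_nonneg (h0' r) hrpos.le
      calc ∑ q ∈ Finset.Ico 1 r, (Nat.gcd q r : ℝ) * min (ψ' q / q) (ψ' r / r)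
          ≤ ∑ q ∈ Finset.Ico 1 r, (Nat.gcd q r : ℝ) * (ψ' r / r) :=
            Finset.sum_le_sum fun q _ =>
              mul_le_mul_of_nonneg_left (min_le_right _ _) (Nat.cast_nonneg _)
        _ = (∑ q ∈ Finset.Ico 1 r, (Nat.gcd q r : ℝ)) * (ψ' r / r) := by
            rw [Finset.sum_mul]
        _ ≤ ((Nat.divisors r).card * r : ℝ) * (ψ' r / r) := by
            apply mul_le_mul_of_nonneg_right _ hnn
            have := sum_gcd_le r
            exact_mod_cast this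
        _ = ((Nat.divisors r).card : ℝ) * ψ' r := by field_simp
        _ ≤ (T : ℝ) * ψ' r := by
            rcases eq_or_ne (ψ' r) 0 with h | h
            · rw [h]; simp
            · apply mul_le_mul_of_nonneg_right _ (h0' r)
              exact_mod_cast hsupp' r h
    calc ∑ r ∈ Finset.Icc 1 N, ∑ q ∈ Finset.Ico 1 r,
          (Nat.gcd q r : ℝ) * min (ψ' q / q) (ψ' r / r)
        ≤ ∑ r ∈ Finset.Icc 1 N, (T : ℝ) * ψ' r := Finset.sum_le_sum hrow
      _ = (T : ℝ) * S := by rw [← Finset.mul_sum]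
      _ ≤ ε * S ^ 2 := by
          have h1 : (T : ℝ) ≤ ε * S := by
            rw [div_le_iff₀ hε] at hN; linarith
          nlinarith
  have hmain := real_main γ ψ' h0' h1' hdiv' hgcd'
  filter_upwards [hmain] with x hx
  refine hx.mono ?_
  rintro q ⟨hq, a, ha⟩
  exact ⟨hq, a, lt_of_lt_of_le ha (hle q)⟩

/-- Prime supports. -/
theorem prime_support (γ : ℝ) (ψ : ℕ → ℝ) (hψ0 : ∀ q, 0 ≤ ψ q)
    (hsupp : ∀ q, ψ q ≠ 0 → q.Prime) (hdiv : ¬ Summable ψ) :
    ∀ᵐ x : ℝ, {q : ℕ | 0 < q ∧ ∃ a : ℤ, |(q : ℝ) * x - a - γ| < ψ q}.Infinite := by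
  refine bounded_divisors γ ψ hψ0 2 (fun q hq => ?_) hdiv
  have hp := hsupp q hq
  rw [hp.divisors]
  exact Finset.card_le_two

end Vale.Agent.Lib.P028
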