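import Vale.Agent.Lib.P028.Overlap
import Vale.Agent.Lib.P028.ChungErdos

open MeasureTheory Set Filter Metric
open scoped ENNReal

namespace Vale.Agent.Lib.P028

/-- The gcd term `gcd(q, r) * min (ψ q / q) (ψ r / r)`. -/
noncomputable def gterm (ψ : ℕ → ℝ) (q r : ℕ) : ℝ := (Nat.gcd q r : ℝ) * min (ψ q / q) (ψ r / r)

lemma gterm_nonneg {ψ : ℕ → ℝ} (hψ0 : ∀ q, 0 ≤ ψ q) (q r : ℕ) : 0 ≤ gterm ψ q r := by
  unfold gterm
  have h1 : 0 ≤ ψ q / q := div_nonneg (hψ0 q) (Nat.cast_nonneg q)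
  have h2 : 0 ≤ ψ r / r := div_nonneg (hψ0 r) (Nat.cast_nonneg r)
  exact mul_nonneg (Nat.cast_nonneg _) (le_min h1 h2)

lemma gterm_symm (ψ : ℕ → ℝ) (q r : ℕ) : gterm ψ q r = gterm ψ r q := by
  unfold gterm
  rw [Nat.gcd_comm, min_comm]

lemma volume_real_cset {q : ℕ} (hq : 0 < q) (c : UnitAddCircle) {δ : ℝ} (h0 : 0 ≤ δ)
    (h1 : δ ≤ 1 / 2) : volume.real (cset q c δ) = 2 * δ := by
  rw [measureReal_def, volume_cset hq.ne', volume_ball_eq c h1,
    ENNReal.toReal_ofReal (by linarith)]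

/-- The off-diagonal gcd terms over a block are at most twice the triangular gcd sum. -/
lemma offdiag_le {ψ : ℕ → ℝ} (hψ0 : ∀ q, 0 ≤ ψ q) (M N : ℕ) (hM : 1 ≤ M) :
    ∑ q ∈ Finset.Icc M N, ∑ r ∈ Finset.Icc M N, (if q = r then 0 else gterm ψ q r)
      ≤ 2 * ∑ r ∈ Finset.Icc 1 N, ∑ q ∈ Finset.Ico 1 r, gterm ψ q r := by
  set I := Finset.Icc M N with hI
  set Err := ∑ r ∈ Finset.Icc 1 N, ∑ q ∈ Finset.Ico 1 r, gterm ψ q r with hErr
  have hIsub : I ⊆ Finset.Icc 1 N := by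
    intro q hq
    rw [hI, Finset.mem_Icc] at hq
    rw [Finset.mem_Icc]; omega
  have hinner_nonneg : ∀ r, 0 ≤ ∑ q ∈ Finset.Ico 1 r, gterm ψ q r :=
    fun r => Finset.sum_nonneg fun q _ => gterm_nonneg hψ0 q r
  -- pointwise splitting
  have hsplit : ∀ q r : ℕ, (if q = r then 0 else gterm ψ q r)
      ≤ (if q < r then gterm ψ q r else 0) + (if r < q then gterm ψ r q else 0) := by
    intro q r
    rcases lt_trichotomy q r with h | h | h
    · have h1 : q ≠ r := h.ne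
      have h2 : ¬ r < q := by omega
      simp [h1, h, h2]
    · simp [h]
    · have h1 : q ≠ r := h.ne'
      have h2 : ¬ q < r := by omega
      simp [h1, h, h2, gterm_symm ψ q r]
  -- first triangular part
  have hsum1 : ∑ q ∈ I, ∑ r ∈ I, (if q < r then gterm ψ q r else 0) ≤ Err := by
    rw [Finset.sum_comm]
    calc ∑ r ∈ I, ∑ q ∈ I, (if q < r then gterm ψ q r else 0)
        ≤ ∑ r ∈ I, ∑ q ∈ Finset.Ico 1 r, gterm ψ q r := by
          refine Finset.sum_le_sum fun r _ => ?_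
          rw [← Finset.sum_filter]
          refine Finset.sum_le_sum_of_subset_of_nonneg ?_ (fun q _ _ => gterm_nonneg hψ0 q r)
          intro q hq
          rw [Finset.mem_filter, hI, Finset.mem_Icc] at hq
          rw [Finset.mem_Ico]; omega
      _ ≤ Err := Finset.sum_le_sum_of_subset_of_nonneg hIsub (fun r _ _ => hinner_nonneg r)
  -- second triangular part
  have hsum2 : ∑ q ∈ I, ∑ r ∈ I, (if r < q then gterm ψ r q else 0) ≤ Err := by
    calc ∑ q ∈ I, ∑ r ∈ I, (if r < q then gterm ψ r q else 0)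
        ≤ ∑ q ∈ I, ∑ r ∈ Finset.Ico 1 q, gterm ψ r q := by
          refine Finset.sum_le_sum fun q _ => ?_
          rw [← Finset.sum_filter]
          refine Finset.sum_le_sum_of_subset_of_nonneg ?_ (fun r _ _ => gterm_nonneg hψ0 r q)
          intro r hr
          rw [Finset.mem_filter, hI, Finset.mem_Icc] at hr
          rw [Finset.mem_Ico]; omega
      _ ≤ Err := Finset.sum_le_sum_of_subset_of_nonneg hIsub (fun q _ _ => hinner_nonneg q)
  calc ∑ q ∈ I, ∑ r ∈ I, (if q = r then 0 else gterm ψ q r)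
      ≤ ∑ q ∈ I, ∑ r ∈ I, ((if q < r then gterm ψ q r else 0)
          + (if r < q then gterm ψ r q else 0)) :=
        Finset.sum_le_sum fun q _ => Finset.sum_le_sum fun r _ => hsplit q r
    _ = ∑ q ∈ I, ∑ r ∈ I, (if q < r then gterm ψ q r else 0)
          + ∑ q ∈ I, ∑ r ∈ I, (if r < q then gterm ψ r q else 0) := by
        simp_rw [Finset.sum_add_distrib]
    _ ≤ 2 * Err := by linarith

/-- Finite form of the quasi-independence estimate. -/
lemma union_lower_bound (c : ℕ → UnitAddCircle) {ψ : ℕ → ℝ} (hψ0 : ∀ q, 0 ≤ ψ q)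
    (hψ1 : ∀ q, ψ q ≤ 1 / 2) (M N : ℕ) (hM : 1 ≤ M) :
    (∑ q ∈ Finset.Icc M N, 2 * ψ q) ^ 2
      ≤ volume.real (⋃ q ∈ Finset.Icc M N, cset q (c q) (ψ q))
        * (∑ q ∈ Finset.Icc M N, 2 * ψ q + (∑ q ∈ Finset.Icc M N, 2 * ψ q) ^ 2
          + 4 * ∑ r ∈ Finset.Icc 1 N, ∑ q ∈ Finset.Ico 1 r, gterm ψ q r) := by
  set I := Finset.Icc M N with hI
  set T := ∑ q ∈ I, 2 * ψ q with hT
  set Err := ∑ r ∈ Finset.Icc 1 N, ∑ q ∈ Finset.Ico 1 r, gterm ψ q r with hErr
  have hpos : ∀ q ∈ I, 0 < q := by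
    intro q hq
    rw [hI, Finset.mem_Icc] at hq; omega
  have hce := chung_erdos (volume : Measure UnitAddCircle) I (fun q => cset q (c q) (ψ q))
    (fun q _ => measurableSet_cset _ _ _)
  have hT' : ∑ q ∈ I, volume.real (cset q (c q) (ψ q)) = T := by
    refine Finset.sum_congr rfl fun q hq => ?_
    exact volume_real_cset (hpos q hq) (c q) (hψ0 q) (hψ1 q)
  rw [hT'] at hce
  -- bound the double sum
  have hD : ∑ q ∈ I, ∑ r ∈ I, volume.real (cset q (c q) (ψ q) ∩ cset r (c r) (ψ r))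
      ≤ T + T ^ 2 + 4 * Err := by
    have hpt : ∀ q ∈ I, ∀ r ∈ I, volume.real (cset q (c q) (ψ q) ∩ cset r (c r) (ψ r))
        ≤ (2 * ψ q) * (2 * ψ r) + (if q = r then 2 * ψ q else 0)
          + 2 * (if q = r then 0 else gterm ψ q r) := by
      intro q hq r hr
      by_cases hqr : q = r
      · subst hqr
        rw [inter_self, volume_real_cset (hpos q hq) (c q) (hψ0 q) (hψ1 q)]
        have := hψ0 q
        simp only [if_true]
        nlinarith
      · have hb := overlap_bound (hpos q hq) (hpos r hr) (c q) (c r) (hψ0 q) (hψ0 r)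
        simp only [hqr, if_false]
        unfold gterm
        linarith
    calc ∑ q ∈ I, ∑ r ∈ I, volume.real (cset q (c q) (ψ q) ∩ cset r (c r) (ψ r))
        ≤ ∑ q ∈ I, ∑ r ∈ I, ((2 * ψ q) * (2 * ψ r) + (if q = r then 2 * ψ q else 0)
          + 2 * (if q = r then 0 else gterm ψ q r)) :=
          Finset.sum_le_sum fun q hq => Finset.sum_le_sum fun r hr => hpt q hq r hr
      _ = T ^ 2 + T + 2 * ∑ q ∈ I, ∑ r ∈ I, (if q = r then 0 else gterm ψ q r) := by
          simp_rw [Finset.sum_add_distrib]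
          have e1 : ∑ q ∈ I, ∑ r ∈ I, (2 * ψ q) * (2 * ψ r) = T ^ 2 := by
            rw [hT, sq, Finset.sum_mul_sum]
          have e2 : ∑ q ∈ I, ∑ r ∈ I, (if q = r then 2 * ψ q else 0) = T := by
            rw [hT]
            refine Finset.sum_congr rfl fun q hq => ?_
            rw [Finset.sum_ite_eq]
            simp [hq]
          have e3 : ∑ q ∈ I, ∑ r ∈ I, 2 * (if q = r then 0 else gterm ψ q r)
              = 2 * ∑ q ∈ I, ∑ r ∈ I, (if q = r then 0 else gterm ψ q r) := by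
            simp_rw [Finset.mul_sum]
          rw [e1, e2, e3]
      _ ≤ T + T ^ 2 + 4 * Err := by
          have := offdiag_le hψ0 M N hM
          linarith
  have hv : 0 ≤ volume.real (⋃ q ∈ I, cset q (c q) (ψ q)) := measureReal_nonneg
  calc T ^ 2 ≤ volume.real (⋃ q ∈ I, cset q (c q) (ψ q))
        * ∑ q ∈ I, ∑ r ∈ I, volume.real (cset q (c q) (ψ q) ∩ cset r (c r) (ψ r)) := hce
    _ ≤ volume.real (⋃ q ∈ I, cset q (c q) (ψ q)) * (T + T ^ 2 + 4 * Err) :=
        mul_le_mul_of_nonneg_left hD hv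

end Vale.Agent.Lib.P028
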