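import Vale.Agent.Lib.P028.Limsup

open MeasureTheory Set Filter Metric
open scoped ENNReal

namespace Vale.Agent.Lib.P028

lemma tendsto_partial {ψ : ℕ → ℝ} (hψ0 : ∀ q, 0 ≤ ψ q) (hdiv : ¬ Summable ψ) :
    Tendsto (fun N => ∑ q ∈ Finset.Icc 1 N, ψ q) atTop atTop := by
  have h := (not_summable_iff_tendsto_nat_atTop_of_nonneg hψ0).1 hdiv
  have h1 : Tendsto (fun N => ∑ i ∈ Finset.range (N + 1), ψ i) atTop atTop :=
    (tendsto_add_atTop_iff_nat 1).2 h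
  have e : ∀ N, ∑ i ∈ Finset.range (N + 1), ψ i = ψ 0 + ∑ q ∈ Finset.Icc 1 N, ψ q := by
    intro N
    rw [Finset.range_eq_Ico, Finset.sum_eq_sum_Ico_succ_bot (Nat.succ_pos N)]
    congr 1
  have e2 : (fun N => ∑ q ∈ Finset.Icc 1 N, ψ q)
      = fun N => (∑ i ∈ Finset.range (N + 1), ψ i) + (-ψ 0) := by
    funext N; rw [e]; ring
  rw [e2]
  exact tendsto_atTop_add_const_right _ _ h1

lemma tail_full (c : ℕ → UnitAddCircle) {ψ : ℕ → ℝ} (hψ0 : ∀ q, 0 ≤ ψ q)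
    (hψ1 : ∀ q, ψ q ≤ 1 / 2) (hdiv : ¬ Summable ψ)
    (hgcd : ∀ ε > 0, ∃ᶠ N in atTop,
      ∑ r ∈ Finset.Icc 1 N, ∑ q ∈ Finset.Ico 1 r, gterm ψ q r
        ≤ ε * (∑ q ∈ Finset.Icc 1 N, ψ q) ^ 2)
    (M : ℕ) (hM : 1 ≤ M) :
    volume.real (⋃ q ∈ {q : ℕ | M ≤ q}, cset q (c q) (ψ q)) = 1 := by
  haveI : IsProbabilityMeasure (volume : Measure UnitAddCircle) := ⟨UnitAddCircle.measure_univ⟩
  set V := ⋃ q ∈ {q : ℕ | M ≤ q}, cset q (c q) (ψ q) with hV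
  have hV1 : volume.real V ≤ 1 := measureReal_le_one
  have hV0 : 0 ≤ volume.real V := measureReal_nonneg
  refine le_antisymm hV1 (le_of_forall_pos_le_add fun η hη => ?_)
  set ε := η / 5 with hε
  have hεpos : 0 < ε := by positivity
  set C₀ := ∑ q ∈ Finset.Icc 1 (M - 1), ψ q with hC₀
  obtain ⟨N, hErr, hS⟩ := ((hgcd ε hεpos).and_eventually
    ((tendsto_partial hψ0 hdiv).eventually_ge_atTop (2 * C₀ + 1 / ε))).exists
  set S := ∑ q ∈ Finset.Icc 1 N, ψ q with hSdef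
  set T := ∑ q ∈ Finset.Icc M N, 2 * ψ q with hT
  set Err := ∑ r ∈ Finset.Icc 1 N, ∑ q ∈ Finset.Ico 1 r, gterm ψ q r with hErrdef
  have hS0 : 0 ≤ S := Finset.sum_nonneg fun q _ => hψ0 q
  have hC₀0 : 0 ≤ C₀ := Finset.sum_nonneg fun q _ => hψ0 q
  -- S ≤ C₀ + T / 2
  have hST : S ≤ C₀ + T / 2 := by
    have hsplit := Finset.sum_filter_add_sum_filter_not (Finset.Icc 1 N) (fun q => q < M) ψ
    have h1 : ∑ q ∈ (Finset.Icc 1 N).filter (fun q => q < M), ψ q ≤ C₀ := by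
      refine Finset.sum_le_sum_of_subset_of_nonneg ?_ (fun q _ _ => hψ0 q)
      intro q hq
      rw [Finset.mem_filter, Finset.mem_Icc] at hq
      rw [Finset.mem_Icc]; omega
    have h2 : ∑ q ∈ (Finset.Icc 1 N).filter (fun q => ¬ q < M), ψ q
        ≤ ∑ q ∈ Finset.Icc M N, ψ q := by
      refine Finset.sum_le_sum_of_subset_of_nonneg ?_ (fun q _ _ => hψ0 q)
      intro q hq
      rw [Finset.mem_filter, Finset.mem_Icc] at hq
      rw [Finset.mem_Icc]; omega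
    have h3 : T / 2 = ∑ q ∈ Finset.Icc M N, ψ q := by
      rw [hT, ← Finset.mul_sum]; ring
    rw [hSdef, ← hsplit, h3]
    linarith
  have hinv : 0 < 1 / ε := by positivity
  have hTS : S ≤ T := by linarith
  have hTε : 1 / ε ≤ T := by linarith
  have hTpos : 0 < T := by linarith
  have hεT : 1 ≤ ε * T := by
    have := mul_le_mul_of_nonneg_left hTε hεpos.le
    rwa [mul_one_div_cancel hεpos.ne'] at this
  have hT2 : T ≤ ε * T ^ 2 := by nlinarith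
  have hErr2 : Err ≤ ε * T ^ 2 := by
    have : S ^ 2 ≤ T ^ 2 := by nlinarith
    calc Err ≤ ε * S ^ 2 := hErr
      _ ≤ ε * T ^ 2 := mul_le_mul_of_nonneg_left this hεpos.le
  have hub := union_lower_bound c hψ0 hψ1 M N hM
  rw [← hT, ← hErrdef] at hub
  set v' := volume.real (⋃ q ∈ Finset.Icc M N, cset q (c q) (ψ q)) with hv'
  have hv'0 : 0 ≤ v' := measureReal_nonneg
  have hv'V : v' ≤ volume.real V := by
    apply measureReal_mono _ (measure_ne_top _ _)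
    intro x hx
    simp only [mem_iUnion, exists_prop] at hx
    obtain ⟨q, hq, hxq⟩ := hx
    rw [Finset.mem_Icc] at hq
    exact mem_biUnion (show q ∈ {q : ℕ | M ≤ q} from hq.1) hxq
  have h5 : T ^ 2 ≤ v' * ((1 + 5 * ε) * T ^ 2) := by
    calc T ^ 2 ≤ v' * (T + T ^ 2 + 4 * Err) := hub
      _ ≤ v' * ((1 + 5 * ε) * T ^ 2) := by
          apply mul_le_mul_of_nonneg_left _ hv'0
          linarith
  have hT2pos : 0 < T ^ 2 := by positivity
  have h6 : 1 ≤ v' * (1 + 5 * ε) := by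
    have : 1 * T ^ 2 ≤ (v' * (1 + 5 * ε)) * T ^ 2 := by linarith
    exact le_of_mul_le_mul_right this hT2pos
  have h7 : v' * (1 + 5 * ε) ≤ volume.real V + η := by
    have : v' * (1 + 5 * ε) ≤ volume.real V * (1 + 5 * ε) :=
      mul_le_mul_of_nonneg_right hv'V (by positivity)
    have h8 : volume.real V * (5 * ε) ≤ 1 * (5 * ε) :=
      mul_le_mul_of_nonneg_right hV1 (by positivity)
    have h9 : 5 * ε = η := by rw [hε]; ring
    nlinarith
  linarith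

theorem circle_main (c : ℕ → UnitAddCircle) {ψ : ℕ → ℝ} (hψ0 : ∀ q, 0 ≤ ψ q)
    (hψ1 : ∀ q, ψ q ≤ 1 / 2) (hdiv : ¬ Summable ψ)
    (hgcd : ∀ ε > 0, ∃ᶠ N in atTop,
      ∑ r ∈ Finset.Icc 1 N, ∑ q ∈ Finset.Ico 1 r, gterm ψ q r
        ≤ ε * (∑ q ∈ Finset.Icc 1 N, ψ q) ^ 2) :
    ∀ᵐ x : UnitAddCircle, ∀ M : ℕ, ∃ q, M ≤ q ∧ 0 < q ∧ x ∈ cset q (c q) (ψ q) := by
  haveI : IsProbabilityMeasure (volume : Measure UnitAddCircle) := ⟨UnitAddCircle.measure_univ⟩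
  rw [ae_all_iff]
  intro M
  set M' := max M 1 with hM'
  set V := ⋃ q ∈ {q : ℕ | M' ≤ q}, cset q (c q) (ψ q) with hV
  have hVmeas : MeasurableSet V :=
    MeasurableSet.biUnion (Set.to_countable _) (fun q _ => measurableSet_cset _ _ _)
  have hreal := tail_full c hψ0 hψ1 hdiv hgcd M' (le_max_right _ _)
  have hvol : volume V = 1 := by
    rw [measureReal_def] at hreal
    exact (ENNReal.toReal_eq_one_iff _).1 hreal
  have hnull : volume Vᶜ = 0 := (prob_compl_eq_zero_iff hVmeas).2 hvol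
  rw [ae_iff]
  refine measure_mono_null ?_ hnull
  intro x hx
  rw [mem_compl_iff]
  intro hxV
  apply hx
  simp only [hV, mem_iUnion, exists_prop] at hxV
  obtain ⟨q, hq, hxq⟩ := hxV
  have hq' : M' ≤ q := hq
  exact ⟨q, le_trans (le_max_left _ _) hq', lt_of_lt_of_le one_pos (le_trans (le_max_right _ _) hq'),
    hxq⟩

lemma ae_real_of_ae_circle {P : UnitAddCircle → Prop} (h : ∀ᵐ y : UnitAddCircle, P y) :
    ∀ᵐ x : ℝ, P (x : UnitAddCircle) := by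
  rw [ae_iff] at h ⊢
  set S := {y : UnitAddCircle | ¬ P y} with hS
  have hpre : {x : ℝ | ¬ P (x : UnitAddCircle)} = (fun x : ℝ => (x : UnitAddCircle)) ⁻¹' S := rfl
  rw [hpre]
  have hpiece : ∀ n : ℤ,
      volume ((fun x : ℝ => (x : UnitAddCircle)) ⁻¹' S ∩ Ioc (n : ℝ) (n + 1)) = 0 := by
    intro n
    have hmp := UnitAddCircle.measurePreserving_mk (n : ℝ)
    have := hmp.quasiMeasurePreserving.preimage_null h
    rwa [Measure.restrict_apply' measurableSet_Ioc] at this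
  calc volume ((fun x : ℝ => (x : UnitAddCircle)) ⁻¹' S)
      = volume (⋃ n : ℤ, (fun x : ℝ => (x : UnitAddCircle)) ⁻¹' S ∩ Ioc (n : ℝ) (n + 1)) := by
        rw [← inter_iUnion, iUnion_Ioc_intCast, inter_univ]
    _ = 0 := measure_iUnion_null hpiece

/-- The general criterion on the real line. -/
theorem real_main (γ : ℝ) (ψ : ℕ → ℝ) (hψ0 : ∀ q, 0 ≤ ψ q) (hψ1 : ∀ q, ψ q ≤ 1 / 2)
    (hdiv : ¬ Summable ψ)
    (hgcd : ∀ ε > 0, ∃ᶠ N in atTop,
      ∑ r ∈ Finset.Icc 1 N, ∑ q ∈ Finset.Ico 1 r,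
          (Nat.gcd q r : ℝ) * min (ψ q / q) (ψ r / r)
        ≤ ε * (∑ q ∈ Finset.Icc 1 N, ψ q) ^ 2) :
    ∀ᵐ x : ℝ, {q : ℕ | 0 < q ∧ ∃ a : ℤ, |(q : ℝ) * x - a - γ| < ψ q}.Infinite := by
  have hc := ae_real_of_ae_circle (circle_main (fun _ => (γ : UnitAddCircle)) hψ0 hψ1 hdiv hgcd)
  filter_upwards [hc] with x hx
  apply Set.infinite_of_forall_exists_gt
  intro M
  obtain ⟨q, hMq, hq0, hmem⟩ := hx (M + 1)
  refine ⟨q, ⟨hq0, ?_⟩, by omega⟩
  simp only [cset, mem_preimage, mem_ball, dist_eq_norm] at hmem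
  have e : q • (x : UnitAddCircle) - (γ : UnitAddCircle)
      = (((q : ℝ) * x - γ : ℝ) : UnitAddCircle) := by
    rw [AddCircle.coe_sub, ← nsmul_eq_mul, AddCircle.coe_nsmul]
  rw [e, UnitAddCircle.norm_eq] at hmem
  refine ⟨round ((q : ℝ) * x - γ), ?_⟩
  have e2 : (q : ℝ) * x - round ((q : ℝ) * x - γ) - γ
      = (q : ℝ) * x - γ - round ((q : ℝ) * x - γ) := by ring
  rw [e2]; exact hmem

end Vale.Agent.Lib.P028
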