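import Vale.Agent.Lib.P028.Circle

open MeasureTheory Set Filter Metric
open scoped ENNReal

namespace Vale.Agent.Lib.P028

open scoped Classical in
lemma overlap_coprime {q r : ℕ} (hq : 0 < q) (hcop : Nat.Coprime q r) (c₁ c₂ : UnitAddCircle)
    (δ ε : ℝ) (hε : 0 ≤ ε) :
    (q : ℝ≥0∞) * volume (cset q c₁ δ ∩ cset r c₂ ε)
      ≤ ENNReal.ofReal (2 * q * ε + 1) * volume (cset q c₁ δ) := by
  have hq' : (0 : ℝ) < q := by exact_mod_cast hq
  set τ : UnitAddCircle := ((1 / q : ℝ) : UnitAddCircle) with hτ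
  have hqτ : q • τ = 0 := by
    rw [hτ, ← AddCircle.coe_nsmul, nsmul_eq_mul]
    have : (q : ℝ) * (1 / q) = 1 := by field_simp
    rw [this]; exact AddCircle.coe_period 1
  set A := cset q c₁ δ ∩ cset r c₂ ε with hA
  have hAmeas : MeasurableSet A := (measurableSet_cset _ _ _).inter (measurableSet_cset _ _ _)
  set B : ℕ → Set UnitAddCircle := fun j => (fun x => x + j • τ) ⁻¹' A with hB
  have hBmeas : ∀ j, MeasurableSet (B j) := fun j => (measurable_add_const _) hAmeas
  have hBvol : ∀ j, volume (B j) = volume A :=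
    fun j => measure_preimage_add_right volume (j • τ) A
  have hBsub : ∀ j, B j ⊆ cset q c₁ δ := by
    intro j x hx
    have h1 : x + j • τ ∈ cset q c₁ δ := hx.1
    simp only [cset, mem_preimage] at h1 ⊢
    have e : q • (x + j • τ) = q • x := by
      rw [nsmul_add, ← mul_nsmul', mul_comm, mul_nsmul', hqτ, nsmul_zero, add_zero]
    rwa [e] at h1
  have hcount : ∀ x, ((((Finset.range q).filter (fun j => x ∈ B j)).card : ℕ) : ℝ≥0∞)
      ≤ ENNReal.ofReal (2 * q * ε + 1) := by
    intro x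
    obtain ⟨s, hs⟩ := QuotientAddGroup.mk_surjective (r • x - c₂)
    have key : ∀ j ∈ (Finset.range q).filter (fun j => x ∈ B j),
        |s + j * r / q - round (s + j * r / q)| < ε := by
      intro j hj
      have hxj : x + j • τ ∈ cset r c₂ ε := (Finset.mem_filter.1 hj).2.2
      simp only [cset, mem_preimage, mem_ball, dist_eq_norm] at hxj
      have e : r • (x + j • τ) - c₂ = ((s + j * r / q : ℝ) : UnitAddCircle) := by
        rw [nsmul_add, add_sub_right_comm, ← hs, AddCircle.coe_add]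
        congr 1
        rw [hτ, ← AddCircle.coe_nsmul, ← AddCircle.coe_nsmul]
        congr 1
        simp only [nsmul_eq_mul]
        field_simp
      rw [e, UnitAddCircle.norm_eq] at hxj
      exact hxj
    set m : ℕ → ℤ := fun j => j * r - q * round (s + j * r / q) with hm
    have hmaps : ∀ j ∈ (Finset.range q).filter (fun j => x ∈ B j),
        m j ∈ Finset.Ioo ⌊-(q * s) - q * ε⌋ ⌈-(q * s) + q * ε⌉ := by
      intro j hj
      have h := key j hj
      have h2 : |(q : ℝ) * s + m j| < q * ε := by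
        have : (q : ℝ) * s + m j = q * (s + j * r / q - round (s + j * r / q)) := by
          simp only [hm]; push_cast; field_simp; ring
        rw [this, abs_mul, abs_of_pos hq']
        exact mul_lt_mul_of_pos_left h hq'
      rw [abs_lt] at h2
      rw [Finset.mem_Ioo, Int.floor_lt, Int.lt_ceil]
      constructor <;> linarith
    have hinj : Set.InjOn m ((Finset.range q).filter (fun j => x ∈ B j) : Set ℕ) := by
      intro j hj j' hj' hmm
      have hjq : j < q := Finset.mem_range.1 (Finset.mem_filter.1 hj).1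
      have hjq' : j' < q := Finset.mem_range.1 (Finset.mem_filter.1 hj').1
      simp only [hm] at hmm
      have hdvd : (q : ℤ) ∣ ((j : ℤ) - j') * r :=
        ⟨round (s + j * r / q) - round (s + j' * r / q), by linarith⟩
      have hcop' : IsCoprime (q : ℤ) (r : ℤ) := Nat.isCoprime_iff_coprime.2 hcop
      have hdvd' : (q : ℤ) ∣ (j : ℤ) - j' := hcop'.dvd_of_dvd_mul_right hdvd
      have : (j : ℤ) - j' = 0 :=
        Int.eq_zero_of_abs_lt_dvd hdvd' (by rw [abs_lt]; constructor <;> omega)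
      omega
    have hcard := Finset.card_le_card_of_injOn m hmaps hinj
    have hle := card_int_Ioo_le (-(q * s) - q * ε) (-(q * s) + q * ε)
      (by nlinarith [mul_nonneg hq'.le hε])
    have hreal : ((((Finset.range q).filter (fun j => x ∈ B j)).card : ℕ) : ℝ)
        ≤ 2 * q * ε + 1 := by
      have : ((((Finset.range q).filter (fun j => x ∈ B j)).card : ℕ) : ℝ)
          ≤ (((Finset.Ioo ⌊-(q * s) - q * ε⌋ ⌈-(q * s) + q * ε⌉).card : ℕ) : ℝ) := by
        exact_mod_cast hcard
      linarith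
    rw [← ENNReal.ofReal_natCast]
    exact ENNReal.ofReal_le_ofReal hreal
  have hsum := sum_measure_le_of_card_le volume (Finset.range q) B (cset q c₁ δ)
    (fun j _ => hBmeas j) (measurableSet_cset _ _ _) _ (fun j _ => hBsub j) hcount
  simp only [hBvol, Finset.sum_const, Finset.card_range, nsmul_eq_mul] at hsum
  exact hsum

/-- One-sided overlap bound in the coprime case. -/
lemma overlap_coprime_real {q r : ℕ} (hq : 0 < q) (hcop : Nat.Coprime q r)
    (c₁ c₂ : UnitAddCircle) {δ ε : ℝ} (hδ : 0 ≤ δ) (hε : 0 ≤ ε) :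
    volume.real (cset q c₁ δ ∩ cset r c₂ ε) ≤ 4 * δ * ε + 2 * δ / q := by
  have hq' : (0 : ℝ) < q := by exact_mod_cast hq
  have h1 := overlap_coprime hq hcop c₁ c₂ δ ε hε
  have h2 : volume (cset q c₁ δ) ≤ ENNReal.ofReal (2 * δ) := by
    rw [volume_cset hq.ne']; exact volume_ball_le c₁ δ
  have h3 : (q : ℝ≥0∞) * volume (cset q c₁ δ ∩ cset r c₂ ε)
      ≤ ENNReal.ofReal (2 * q * ε + 1) * ENNReal.ofReal (2 * δ) :=
    h1.trans (mul_le_mul_right h2 _)
  have h4 : (q : ℝ) * volume.real (cset q c₁ δ ∩ cset r c₂ ε) ≤ (2 * q * ε + 1) * (2 * δ) := by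
    have hfin : ENNReal.ofReal (2 * q * ε + 1) * ENNReal.ofReal (2 * δ) ≠ ⊤ :=
      ENNReal.mul_ne_top ENNReal.ofReal_ne_top ENNReal.ofReal_ne_top
    have := ENNReal.toReal_mono hfin h3
    rw [ENNReal.toReal_mul, ENNReal.toReal_mul, ENNReal.toReal_natCast,
      ENNReal.toReal_ofReal (by positivity), ENNReal.toReal_ofReal (by positivity)] at this
    exact this
  have h5 : volume.real (cset q c₁ δ ∩ cset r c₂ ε) ≤ (2 * q * ε + 1) * (2 * δ) / q := by
    rw [le_div_iff₀ hq']; linarith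
  calc volume.real (cset q c₁ δ ∩ cset r c₂ ε) ≤ (2 * q * ε + 1) * (2 * δ) / q := h5
    _ = 4 * δ * ε + 2 * δ / q := by field_simp; ring

lemma cset_mul (d q : ℕ) (c : UnitAddCircle) (δ : ℝ) :
    cset (q * d) c δ = (fun x : UnitAddCircle => d • x) ⁻¹' cset q c δ := by
  ext x
  simp only [cset, mem_preimage]
  rw [mul_nsmul']

/-- Overlap bound: for positive integers `q`, `r` and radii `δ, ε ≥ 0`,
`μ {x : q x ∈ B(c₁, δ), r x ∈ B(c₂, ε)} ≤ 4 δ ε + 2 gcd(q, r) min (δ / q) (ε / r)`. -/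
lemma overlap_bound {q r : ℕ} (hq : 0 < q) (hr : 0 < r) (c₁ c₂ : UnitAddCircle) {δ ε : ℝ}
    (hδ : 0 ≤ δ) (hε : 0 ≤ ε) :
    volume.real (cset q c₁ δ ∩ cset r c₂ ε)
      ≤ 4 * δ * ε + 2 * (Nat.gcd q r : ℝ) * min (δ / q) (ε / r) := by
  set d := Nat.gcd q r with hd
  have hdpos : 0 < d := Nat.gcd_pos_of_pos_left r hq
  have hqd : q / d * d = q := Nat.div_mul_cancel (Nat.gcd_dvd_left q r)
  have hrd : r / d * d = r := Nat.div_mul_cancel (Nat.gcd_dvd_right q r)
  have hq1 : 0 < q / d := Nat.div_pos (Nat.le_of_dvd hq (Nat.gcd_dvd_left q r)) hdpos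
  have hr1 : 0 < r / d := Nat.div_pos (Nat.le_of_dvd hr (Nat.gcd_dvd_right q r)) hdpos
  have hcop : Nat.Coprime (q / d) (r / d) := Nat.coprime_div_gcd_div_gcd hdpos
  have hset : cset q c₁ δ ∩ cset r c₂ ε
      = (fun x : UnitAddCircle => d • x) ⁻¹' (cset (q / d) c₁ δ ∩ cset (r / d) c₂ ε) := by
    rw [preimage_inter, ← cset_mul, ← cset_mul, hqd, hrd]
  have hvol : volume.real (cset q c₁ δ ∩ cset r c₂ ε)
      = volume.real (cset (q / d) c₁ δ ∩ cset (r / d) c₂ ε) := by
    rw [hset, measureReal_def, measureReal_def,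
      (mp_nsmul hdpos.ne').measure_preimage
        ((measurableSet_cset _ _ _).inter (measurableSet_cset _ _ _)).nullMeasurableSet]
  have hqcast : ((q / d : ℕ) : ℝ) = (q : ℝ) / d := by
    rw [Nat.cast_div (Nat.gcd_dvd_left q r) (by exact_mod_cast hdpos.ne')]
  have hrcast : ((r / d : ℕ) : ℝ) = (r : ℝ) / d := by
    rw [Nat.cast_div (Nat.gcd_dvd_right q r) (by exact_mod_cast hdpos.ne')]
  have hq' : (0 : ℝ) < q := by exact_mod_cast hq
  have hr' : (0 : ℝ) < r := by exact_mod_cast hr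
  have hd' : (0 : ℝ) < d := by exact_mod_cast hdpos
  have b1 := overlap_coprime_real hq1 hcop c₁ c₂ hδ hε
  have b2 := overlap_coprime_real hr1 hcop.symm c₂ c₁ hε hδ
  rw [inter_comm] at b2
  rw [hqcast] at b1
  rw [hrcast] at b2
  rw [hvol]
  have e1 : 2 * δ / ((q : ℝ) / d) = 2 * (d : ℝ) * (δ / q) := by field_simp
  have e2 : 2 * ε / ((r : ℝ) / d) = 2 * (d : ℝ) * (ε / r) := by field_simp
  rw [e1] at b1
  rw [e2] at b2
  rcases le_total (δ / q) (ε / r) with h | h
  · rw [min_eq_left h]; exact b1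
  · rw [min_eq_right h]; linarith

end Vale.Agent.Lib.P028
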