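import Vale.Agent.Lib.P028.Divisors

/-!
Divergence with a divisor-function weight: if `∑ ψ(q) f(τ(q)) = ∞` for a summable
nonincreasing `f ≥ 0`, then the limsup set has full measure, for arbitrary (moving) targets.
-/

open MeasureTheory Set Filter Metric
open scoped ENNReal

namespace Vale.Agent.Lib.P028

/-- Passage from the circle to the real line for one denominator. -/
lemma exists_int_of_mem_cset {q : ℕ} {x γ δ : ℝ}
    (h : (x : UnitAddCircle) ∈ cset q (γ : UnitAddCircle) δ) :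
    ∃ a : ℤ, |(q : ℝ) * x - a - γ| < δ := by
  simp only [cset, mem_preimage, mem_ball, dist_eq_norm] at h
  have e : q • (x : UnitAddCircle) - (γ : UnitAddCircle)
      = (((q : ℝ) * x - γ : ℝ) : UnitAddCircle) := by
    rw [AddCircle.coe_sub, ← nsmul_eq_mul, AddCircle.coe_nsmul]
  rw [e, UnitAddCircle.norm_eq] at h
  refine ⟨round ((q : ℝ) * x - γ), ?_⟩
  have e2 : (q : ℝ) * x - round ((q : ℝ) * x - γ) - γ
      = (q : ℝ) * x - γ - round ((q : ℝ) * x - γ) := by ring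
  rw [e2]; exact h

lemma cset_mono (q : ℕ) (c : UnitAddCircle) {δ δ' : ℝ} (h : δ ≤ δ') :
    cset q c δ ⊆ cset q c δ' :=
  preimage_mono (ball_subset_ball h)

/-- The triangular gcd sum under a divisor bound on the support. -/
lemma err_le_of_divisor_bound {ψ : ℕ → ℝ} (hψ0 : ∀ q, 0 ≤ ψ q) (T : ℕ)
    (hsupp : ∀ q, ψ q ≠ 0 → (Nat.divisors q).card ≤ T) (N : ℕ) :
    ∑ r ∈ Finset.Icc 1 N, ∑ q ∈ Finset.Ico 1 r, gterm ψ q r
      ≤ (T : ℝ) * ∑ r ∈ Finset.Icc 1 N, ψ r := by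
  have hrow : ∀ r ∈ Finset.Icc 1 N,
      ∑ q ∈ Finset.Ico 1 r, gterm ψ q r ≤ (T : ℝ) * ψ r := by
    intro r hr
    have hr1 : 1 ≤ r := (Finset.mem_Icc.1 hr).1
    have hrpos : (0 : ℝ) < r := by exact_mod_cast hr1
    have hnn : 0 ≤ ψ r / r := div_nonneg (hψ0 r) hrpos.le
    unfold gterm
    calc ∑ q ∈ Finset.Ico 1 r, (Nat.gcd q r : ℝ) * min (ψ q / q) (ψ r / r)
        ≤ ∑ q ∈ Finset.Ico 1 r, (Nat.gcd q r : ℝ) * (ψ r / r) :=
          Finset.sum_le_sum fun q _ =>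
            mul_le_mul_of_nonneg_left (min_le_right _ _) (Nat.cast_nonneg _)
      _ = (∑ q ∈ Finset.Ico 1 r, (Nat.gcd q r : ℝ)) * (ψ r / r) := by
          rw [Finset.sum_mul]
      _ ≤ ((Nat.divisors r).card * r : ℝ) * (ψ r / r) := by
          apply mul_le_mul_of_nonneg_right _ hnn
          have := sum_gcd_le r
          exact_mod_cast this
      _ = ((Nat.divisors r).card : ℝ) * ψ r := by field_simp
      _ ≤ (T : ℝ) * ψ r := by
          rcases eq_or_ne (ψ r) 0 with h | h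
          · rw [h]; simp
          · apply mul_le_mul_of_nonneg_right _ (hψ0 r)
            exact_mod_cast hsupp r h
  calc ∑ r ∈ Finset.Icc 1 N, ∑ q ∈ Finset.Ico 1 r, gterm ψ q r
      ≤ ∑ r ∈ Finset.Icc 1 N, (T : ℝ) * ψ r := Finset.sum_le_sum hrow
    _ = (T : ℝ) * ∑ r ∈ Finset.Icc 1 N, ψ r := by rw [← Finset.mul_sum]

/-- The level-`j` piece of `ψ`: keeps `ψ q` when `2 ^ j ≤ τ(q) < 2 ^ (j + 1)`. -/
noncomputable def lev (ψ : ℕ → ℝ) (j q : ℕ) : ℝ :=
  if Nat.log 2 (Nat.divisors q).card = j then ψ q else 0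

lemma lev_nonneg {ψ : ℕ → ℝ} (hψ0 : ∀ q, 0 ≤ ψ q) (j q : ℕ) : 0 ≤ lev ψ j q := by
  unfold lev; split_ifs
  · exact hψ0 q
  · exact le_rfl

lemma lev_le {ψ : ℕ → ℝ} (hψ0 : ∀ q, 0 ≤ ψ q) (j q : ℕ) : lev ψ j q ≤ ψ q := by
  unfold lev; split_ifs
  · exact le_rfl
  · exact hψ0 q

lemma log_eq_of_lev_ne_zero {ψ : ℕ → ℝ} {j q : ℕ} (h : lev ψ j q ≠ 0) :
    Nat.log 2 (Nat.divisors q).card = j := by
  unfold lev at h
  by_contra hne
  simp [hne] at h

lemma card_le_of_lev_ne_zero {ψ : ℕ → ℝ} {j q : ℕ} (h : lev ψ j q ≠ 0) :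
    (Nat.divisors q).card ≤ 2 ^ (j + 1) := by
  have h1 := log_eq_of_lev_ne_zero h
  rw [← h1]
  exact (Nat.lt_pow_succ_log_self (by norm_num) _).le

lemma pow_le_card_of_lev_ne_zero {ψ : ℕ → ℝ} {j q : ℕ} (hq : 0 < q) (h : lev ψ j q ≠ 0) :
    2 ^ j ≤ (Nat.divisors q).card := by
  have h1 := log_eq_of_lev_ne_zero h
  rw [← h1]
  exact Nat.pow_log_le_self 2 (Finset.card_ne_zero.2 ⟨1, Nat.one_mem_divisors.2 hq.ne'⟩)

lemma sum_lev (ψ : ℕ → ℝ) (q J : ℕ) (h : Nat.log 2 (Nat.divisors q).card ≤ J) :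
    ∑ j ∈ Finset.range (J + 1), lev ψ j q = ψ q := by
  unfold lev
  rw [Finset.sum_ite_eq]
  simp [Nat.lt_succ_of_le h]

/-- If the weighted series diverges, some level carries a block of large mass. -/
lemma exists_block {ψ : ℕ → ℝ} (hψ0 : ∀ q, 0 ≤ ψ q) {f : ℕ → ℝ} (hf0 : ∀ n, 0 ≤ f n)
    (hfa : ∀ ⦃m n : ℕ⦄, 0 < m → m ≤ n → f n ≤ f m) (hfs : Summable f)
    (hdiv : ¬ Summable (fun q => ψ q * f (Nat.divisors q).card))
    {M : ℕ} (hM : 1 ≤ M) {K : ℝ} (hK : 0 ≤ K) :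
    ∃ j N, K * 2 ^ j ≤ ∑ q ∈ Finset.Icc M N, lev ψ j q := by
  by_contra hcon
  push_neg at hcon
  apply hdiv
  have hcond : Summable (fun k : ℕ => (2 : ℝ) ^ k * f (2 ^ k)) :=
    (summable_condensed_iff_of_nonneg hf0 hfa).2 hfs
  set S := ∑' k : ℕ, (2 : ℝ) ^ k * f (2 ^ k) with hS
  set C := ∑ q ∈ Finset.range M, ψ q * f (Nat.divisors q).card with hC
  have hterm0 : ∀ q, 0 ≤ ψ q * f (Nat.divisors q).card := fun q => mul_nonneg (hψ0 q) (hf0 _)
  apply summable_of_sum_range_le (c := C + K * S) hterm0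
  intro n
  have h1 : ∑ q ∈ Finset.range n, ψ q * f (Nat.divisors q).card
      ≤ C + ∑ q ∈ Finset.Icc M n, ψ q * f (Nat.divisors q).card := by
    have hdisj : Disjoint (Finset.range M) (Finset.Icc M n) := by
      rw [Finset.disjoint_left]
      intro q hq hq'
      rw [Finset.mem_range] at hq
      rw [Finset.mem_Icc] at hq'
      omega
    rw [hC, ← Finset.sum_union hdisj]
    apply Finset.sum_le_sum_of_subset_of_nonneg
    · intro q hq
      rw [Finset.mem_range] at hq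
      rw [Finset.mem_union, Finset.mem_range, Finset.mem_Icc]
      omega
    · intro q _ _; exact hterm0 q
  have h2 : ∑ q ∈ Finset.Icc M n, ψ q * f (Nat.divisors q).card ≤ K * S := by
    calc ∑ q ∈ Finset.Icc M n, ψ q * f (Nat.divisors q).card
        = ∑ q ∈ Finset.Icc M n, ∑ j ∈ Finset.range (n + 1),
            lev ψ j q * f (Nat.divisors q).card := by
          refine Finset.sum_congr rfl fun q hq => ?_
          rw [Finset.mem_Icc] at hq
          rw [← Finset.sum_mul, sum_lev]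
          calc Nat.log 2 (Nat.divisors q).card ≤ (Nat.divisors q).card := Nat.log_le_self _ _
            _ ≤ q := Nat.card_divisors_le_self q
            _ ≤ n := hq.2
      _ = ∑ j ∈ Finset.range (n + 1), ∑ q ∈ Finset.Icc M n,
            lev ψ j q * f (Nat.divisors q).card := Finset.sum_comm
      _ ≤ ∑ j ∈ Finset.range (n + 1), ∑ q ∈ Finset.Icc M n, lev ψ j q * f (2 ^ j) := by
          refine Finset.sum_le_sum fun j _ => Finset.sum_le_sum fun q hq => ?_
          rw [Finset.mem_Icc] at hq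
          rcases eq_or_ne (lev ψ j q) 0 with h0 | h0
          · rw [h0]; simp
          · apply mul_le_mul_of_nonneg_left _ (lev_nonneg hψ0 j q)
            exact hfa (by positivity) (pow_le_card_of_lev_ne_zero (by omega) h0)
      _ = ∑ j ∈ Finset.range (n + 1), (∑ q ∈ Finset.Icc M n, lev ψ j q) * f (2 ^ j) := by
          refine Finset.sum_congr rfl fun j _ => ?_
          rw [Finset.sum_mul]
      _ ≤ ∑ j ∈ Finset.range (n + 1), (K * 2 ^ j) * f (2 ^ j) := by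
          refine Finset.sum_le_sum fun j _ => ?_
          exact mul_le_mul_of_nonneg_right (hcon j n).le (hf0 _)
      _ = K * ∑ j ∈ Finset.range (n + 1), (2 : ℝ) ^ j * f (2 ^ j) := by
          rw [Finset.mul_sum]
          refine Finset.sum_congr rfl fun j _ => ?_
          ring
      _ ≤ K * S := by
          apply mul_le_mul_of_nonneg_left _ hK
          exact hcond.sum_le_tsum _ (fun j _ => mul_nonneg (by positivity) (hf0 _))
  linarith

/-- Tails of the limsup set have full measure. -/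
lemma tail_full_weighted (c : ℕ → UnitAddCircle) {ψ : ℕ → ℝ} (hψ0 : ∀ q, 0 ≤ ψ q)
    (hψ1 : ∀ q, ψ q ≤ 1 / 2) {f : ℕ → ℝ} (hf0 : ∀ n, 0 ≤ f n)
    (hfa : ∀ ⦃m n : ℕ⦄, 0 < m → m ≤ n → f n ≤ f m) (hfs : Summable f)
    (hdiv : ¬ Summable (fun q => ψ q * f (Nat.divisors q).card))
    (M : ℕ) (hM : 1 ≤ M) :
    volume.real (⋃ q ∈ {q : ℕ | M ≤ q}, cset q (c q) (ψ q)) = 1 := by
  haveI : IsProbabilityMeasure (volume : Measure UnitAddCircle) := ⟨UnitAddCircle.measure_univ⟩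
  set V := ⋃ q ∈ {q : ℕ | M ≤ q}, cset q (c q) (ψ q) with hV
  have hV1 : volume.real V ≤ 1 := measureReal_le_one
  have hV0 : 0 ≤ volume.real V := measureReal_nonneg
  refine le_antisymm hV1 (le_of_forall_pos_le_add fun η hη => ?_)
  set K : ℝ := max 1 ((M + 3) / η) with hK
  have hK1 : 1 ≤ K := le_max_left _ _
  have hKη : (M + 3 : ℝ) ≤ η * K := by
    have h : (M + 3 : ℝ) / η ≤ K := le_max_right _ _
    rw [div_le_iff₀ hη] at h
    linarith
  obtain ⟨j, N, hblock⟩ := exists_block hψ0 hf0 hfa hfs hdiv hM (by linarith : (0 : ℝ) ≤ K)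
  set φ := lev ψ j with hφ
  have hφ0 : ∀ q, 0 ≤ φ q := lev_nonneg hψ0 j
  have hφle : ∀ q, φ q ≤ ψ q := lev_le hψ0 j
  have hφ1 : ∀ q, φ q ≤ 1 / 2 := fun q => (hφle q).trans (hψ1 q)
  set P : ℝ := 2 ^ j with hP
  have hP1 : 1 ≤ P := one_le_pow₀ (by norm_num)
  set T := ∑ q ∈ Finset.Icc M N, 2 * φ q with hT
  have hT' : T = 2 * ∑ q ∈ Finset.Icc M N, φ q := by rw [hT, Finset.mul_sum]
  have hTK : 2 * (K * P) ≤ T := by rw [hT']; linarith
  set Err := ∑ r ∈ Finset.Icc 1 N, ∑ q ∈ Finset.Ico 1 r, gterm φ q r with hErr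
  have hErrle : Err ≤ 2 * P * (∑ r ∈ Finset.Icc 1 N, φ r) := by
    have h := err_le_of_divisor_bound hφ0 (2 ^ (j + 1))
      (fun q hq => card_le_of_lev_ne_zero hq) N
    have e : ((2 ^ (j + 1) : ℕ) : ℝ) = 2 * P := by rw [hP]; push_cast; ring
    rw [e] at h
    exact h
  have hMnn : (0 : ℝ) ≤ M := Nat.cast_nonneg M
  have hsumle : ∑ r ∈ Finset.Icc 1 N, φ r ≤ M / 2 + T / 2 := by
    have h1 : ∑ r ∈ Finset.Ico 1 M, φ r ≤ M / 2 := by
      calc ∑ r ∈ Finset.Ico 1 M, φ r ≤ ∑ r ∈ Finset.Ico 1 M, (1 / 2 : ℝ) :=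
            Finset.sum_le_sum fun r _ => hφ1 r
        _ = ((M - 1 : ℕ) : ℝ) * (1 / 2) := by simp
        _ ≤ M / 2 := by
            have : ((M - 1 : ℕ) : ℝ) ≤ M := by exact_mod_cast Nat.sub_le M 1
            linarith
    have hdisj : Disjoint (Finset.Ico 1 M) (Finset.Icc M N) := by
      rw [Finset.disjoint_left]
      intro q hq hq'
      rw [Finset.mem_Ico] at hq
      rw [Finset.mem_Icc] at hq'
      omega
    calc ∑ r ∈ Finset.Icc 1 N, φ r ≤ ∑ r ∈ Finset.Ico 1 M ∪ Finset.Icc M N, φ r := by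
          apply Finset.sum_le_sum_of_subset_of_nonneg
          · intro q hq
            rw [Finset.mem_Icc] at hq
            rw [Finset.mem_union, Finset.mem_Ico, Finset.mem_Icc]
            omega
          · intro q _ _; exact hφ0 q
      _ = ∑ r ∈ Finset.Ico 1 M, φ r + ∑ r ∈ Finset.Icc M N, φ r := Finset.sum_union hdisj
      _ ≤ M / 2 + T / 2 := by rw [hT']; linarith
  have hub := union_lower_bound c hφ0 hφ1 M N hM
  rw [← hT, ← hErr] at hub
  set v' := volume.real (⋃ q ∈ Finset.Icc M N, cset q (c q) (φ q)) with hv'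
  have hv'0 : 0 ≤ v' := measureReal_nonneg
  have hv'V : v' ≤ volume.real V := by
    apply measureReal_mono _ (measure_ne_top _ _)
    intro x hx
    simp only [mem_iUnion, exists_prop] at hx
    obtain ⟨q, hq, hxq⟩ := hx
    rw [Finset.mem_Icc] at hq
    exact mem_biUnion (show q ∈ {q : ℕ | M ≤ q} from hq.1) (cset_mono q (c q) (hφle q) hxq)
  have hKP : 1 ≤ K * P := by nlinarith
  have hT2 : 2 ≤ T := by linarith
  have hP0 : 0 ≤ P := by linarith
  have hErr2 : Err ≤ P * (M + T) := by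
    have : 2 * P * (∑ r ∈ Finset.Icc 1 N, φ r) ≤ 2 * P * (M / 2 + T / 2) :=
      mul_le_mul_of_nonneg_left hsumle (by linarith)
    linarith
  have step1 : T + 4 * (P * (M + T)) ≤ 2 * (M + 3) * P * T := by
    nlinarith [mul_nonneg (mul_nonneg hMnn hP0) (sub_nonneg.2 hT2),
      mul_nonneg (sub_nonneg.2 hP1) (by linarith : (0 : ℝ) ≤ T)]
  have step2 : 2 * (M + 3) * P * T ≤ η * T ^ 2 := by
    have hPT : 0 ≤ P * T := mul_nonneg hP0 (by linarith)
    have h1 : 2 * (M + 3) * P * T ≤ 2 * (η * K) * P * T := by nlinarith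
    have h2 : 2 * (η * K) * P * T = η * T * (2 * (K * P)) := by ring
    have h3 : η * T * (2 * (K * P)) ≤ η * T * T :=
      mul_le_mul_of_nonneg_left hTK (mul_nonneg hη.le (by linarith))
    nlinarith
  have hkey : T + 4 * Err ≤ η * T ^ 2 := by linarith
  have h5 : T ^ 2 ≤ v' * ((1 + η) * T ^ 2) := by
    calc T ^ 2 ≤ v' * (T + T ^ 2 + 4 * Err) := hub
      _ ≤ v' * ((1 + η) * T ^ 2) := by
          apply mul_le_mul_of_nonneg_left _ hv'0
          linarith
  have hT2pos : 0 < T ^ 2 := by positivity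
  have h6 : 1 ≤ v' * (1 + η) := by
    have : 1 * T ^ 2 ≤ (v' * (1 + η)) * T ^ 2 := by linarith
    exact le_of_mul_le_mul_right this hT2pos
  have h7 : v' * (1 + η) ≤ volume.real V + η := by
    have : v' * (1 + η) ≤ volume.real V * (1 + η) :=
      mul_le_mul_of_nonneg_right hv'V (by linarith)
    have h8 : volume.real V * η ≤ 1 * η := mul_le_mul_of_nonneg_right hV1 hη.le
    nlinarith
  linarith

/-- Circle version of the divisor-weight theorem. -/
theorem circle_weighted (c : ℕ → UnitAddCircle) {ψ : ℕ → ℝ} (hψ0 : ∀ q, 0 ≤ ψ q)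
    {f : ℕ → ℝ} (hf0 : ∀ n, 0 ≤ f n) (hfa : ∀ ⦃m n : ℕ⦄, 0 < m → m ≤ n → f n ≤ f m)
    (hfs : Summable f) (hdiv : ¬ Summable (fun q => ψ q * f (Nat.divisors q).card)) :
    ∀ᵐ x : UnitAddCircle, ∀ M : ℕ, ∃ q, M ≤ q ∧ 0 < q ∧ x ∈ cset q (c q) (ψ q) := by
  haveI : IsProbabilityMeasure (volume : Measure UnitAddCircle) := ⟨UnitAddCircle.measure_univ⟩
  by_cases hbig : {q : ℕ | 1 / 2 ≤ ψ q}.Infinite
  · have hfull : ∀ q : ℕ, 0 < q → 1 / 2 ≤ ψ q →
        ∀ᵐ x : UnitAddCircle, x ∈ cset q (c q) (ψ q) := by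
      intro q hq hψ
      have hvol : volume (cset q (c q) (ψ q)) = 1 := by
        rw [volume_cset hq.ne', volume_ball_eq_min]
        have : min 1 (2 * ψ q) = 1 := min_eq_left (by linarith)
        rw [this]; simp
      have hnull : volume (cset q (c q) (ψ q))ᶜ = 0 :=
        (prob_compl_eq_zero_iff (measurableSet_cset _ _ _)).2 hvol
      rw [ae_iff]
      exact hnull
    have hall : ∀ᵐ x : UnitAddCircle, ∀ q : ℕ, 0 < q → 1 / 2 ≤ ψ q →
        x ∈ cset q (c q) (ψ q) := by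
      rw [ae_all_iff]
      intro q
      by_cases h : 0 < q ∧ 1 / 2 ≤ ψ q
      · filter_upwards [hfull q h.1 h.2] with x hx _ _ using hx
      · exact Eventually.of_forall fun x hq hψ => absurd ⟨hq, hψ⟩ h
    filter_upwards [hall] with x hx M
    obtain ⟨q, hq, hMq⟩ := hbig.exists_gt M
    exact ⟨q, hMq.le, by omega, hx q (by omega) hq⟩
  · rw [Set.not_infinite] at hbig
    set ψ' : ℕ → ℝ := fun q => min (ψ q) (1 / 2) with hψ'
    have h0' : ∀ q, 0 ≤ ψ' q := fun q => le_min (hψ0 q) (by norm_num)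
    have h1' : ∀ q, ψ' q ≤ 1 / 2 := fun q => min_le_right _ _
    have hle : ∀ q, ψ' q ≤ ψ q := fun q => min_le_left _ _
    have heq : (fun q => ψ' q * f (Nat.divisors q).card)
        =ᶠ[atTop] (fun q => ψ q * f (Nat.divisors q).card) := by
      have hev : ∀ᶠ q in atTop, q ∉ {q : ℕ | 1 / 2 ≤ ψ q} := by
        have h := hbig.eventually_cofinite_notMem
        rwa [Nat.cofinite_eq_atTop] at h
      filter_upwards [hev] with q hq
      simp only [not_le] at hq
      simp only [hψ', min_eq_left hq.le]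
    have hdiv' : ¬ Summable (fun q => ψ' q * f (Nat.divisors q).card) := by
      intro hs
      exact hdiv (hs.congr_atTop heq)
    rw [ae_all_iff]
    intro M
    set M' := max M 1 with hM'
    set V := ⋃ q ∈ {q : ℕ | M' ≤ q}, cset q (c q) (ψ' q) with hV
    have hVmeas : MeasurableSet V :=
      MeasurableSet.biUnion (Set.to_countable _) (fun q _ => measurableSet_cset _ _ _)
    have hreal := tail_full_weighted c h0' h1' hf0 hfa hfs hdiv' M' (le_max_right _ _)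
    have hvol : volume V = 1 := by
      rw [measureReal_def] at hreal
      exact (ENNReal.toReal_eq_one_iff _).1 hreal
    have hnull : volume Vᶜ = 0 := (prob_compl_eq_zero_iff hVmeas).2 hvol
    rw [ae_iff]
    refine measure_mono_null ?_ hnull
    intro x hx
    rw [mem_compl_iff]
    intro hxV
    apply hx
    simp only [hV, mem_iUnion, exists_prop] at hxV
    obtain ⟨q, hq, hxq⟩ := hxV
    have hq' : M' ≤ q := hq
    exact ⟨q, le_trans (le_max_left _ _) hq',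
      lt_of_lt_of_le one_pos (le_trans (le_max_right _ _) hq'), cset_mono q (c q) (hle q) hxq⟩

/-- Divisor-weight theorem on the real line, with a moving target `γ q`. -/
theorem real_weighted (γ : ℕ → ℝ) (ψ : ℕ → ℝ) (hψ0 : ∀ q, 0 ≤ ψ q)
    (f : ℕ → ℝ) (hf0 : ∀ n, 0 ≤ f n) (hfa : AntitoneOn f (Set.Ici 1)) (hfs : Summable f)
    (hdiv : ¬ Summable (fun q => ψ q * f (Nat.divisors q).card)) :
    ∀ᵐ x : ℝ, {q : ℕ | 0 < q ∧ ∃ a : ℤ, |(q : ℝ) * x - a - γ q| < ψ q}.Infinite := by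
  have hfa' : ∀ ⦃m n : ℕ⦄, 0 < m → m ≤ n → f n ≤ f m := fun m n hm hmn =>
    hfa (Set.mem_Ici.2 hm) (Set.mem_Ici.2 (le_trans hm hmn)) hmn
  have hc := ae_real_of_ae_circle
    (circle_weighted (fun q => (γ q : UnitAddCircle)) hψ0 hf0 hfa' hfs hdiv)
  filter_upwards [hc] with x hx
  apply Set.infinite_of_forall_exists_gt
  intro M
  obtain ⟨q, hMq, hq0, hmem⟩ := hx (M + 1)
  exact ⟨q, ⟨hq0, exists_int_of_mem_cset hmem⟩, by omega⟩

/-- The case `f(n) = 1 / n²` with a fixed shift. -/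
theorem real_divisor_square (γ : ℝ) (ψ : ℕ → ℝ) (hψ0 : ∀ q, 0 ≤ ψ q)
    (hdiv : ¬ Summable (fun q => ψ q / ((Nat.divisors q).card : ℝ) ^ 2)) :
    ∀ᵐ x : ℝ, {q : ℕ | 0 < q ∧ ∃ a : ℤ, |(q : ℝ) * x - a - γ| < ψ q}.Infinite := by
  have hf0 : ∀ n : ℕ, 0 ≤ 1 / (n : ℝ) ^ 2 := fun n => by positivity
  have hfa : AntitoneOn (fun n : ℕ => 1 / (n : ℝ) ^ 2) (Set.Ici 1) := by
    intro m hm n _ hmn
    have hm0 : (0 : ℝ) < m := by exact_mod_cast (Set.mem_Ici.1 hm)
    have hmn' : (m : ℝ) ≤ n := by exact_mod_cast hmn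
    exact one_div_le_one_div_of_le (by positivity) (by gcongr)
  have hfs : Summable (fun n : ℕ => 1 / (n : ℝ) ^ 2) :=
    Real.summable_one_div_nat_pow.2 (by norm_num)
  have hdiv' : ¬ Summable (fun q => ψ q * (1 / ((Nat.divisors q).card : ℝ) ^ 2)) := by
    intro hs
    apply hdiv
    refine hs.congr fun q => ?_
    rw [mul_one_div]
  exact real_weighted (fun _ => γ) ψ hψ0 (fun n : ℕ => 1 / (n : ℝ) ^ 2) hf0 hfa hfs hdiv'

end Vale.Agent.Lib.P028
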